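import Mathlib

/-! P127: images under maps with a.e. invertible derivative; Lipschitz choices of Kakeya
segments. -/

namespace Vale.P127

open MeasureTheory Set Filter Topology
open scoped NNReal ENNReal Pointwise

section
variable {E : Type*} [NormedAddCommGroup E] [NormedSpace ℝ E] [FiniteDimensional ℝ E]
  [MeasurableSpace E] [BorelSpace E] (μ : Measure E) [μ.IsAddHaarMeasure]

/-- If a map has an invertible derivative at every point of `S` and the image of `S` is null, then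
`S` is null. -/
lemma null_of_image_null (f : E → E) (f' : E → E →L[ℝ] E) (S : Set E)
    (hf : ∀ x ∈ S, HasFDerivWithinAt f (f' x) S x) (hdet : ∀ x ∈ S, (f' x).det ≠ 0)
    (h0 : μ (f '' S) = 0) : μ S = 0 := by
  rcases S.eq_empty_or_nonempty with rfl | hne
  · simp
  have key : ∀ A : E →L[ℝ] E, ∃ δ : ℝ≥0, δ ≠ 0 ∧ (A.det ≠ 0 → ∃ m : ℝ≥0, m ≠ 0 ∧
      ∀ (s : Set E) (f : E → E), ApproximatesLinearOn f A s δ →
        (m : ℝ≥0∞) * μ s ≤ μ (f '' s)) := by
    intro A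
    by_cases hA : A.det = 0
    · exact ⟨1, one_ne_zero, fun h => absurd hA h⟩
    · have hpos : (0 : ℝ≥0∞) < ENNReal.ofReal |A.det| := by
        rw [ENNReal.ofReal_pos]
        exact abs_pos.2 hA
      obtain ⟨m, hm0, hm⟩ := ENNReal.lt_iff_exists_nnreal_btwn.1 hpos
      have hev := mul_le_addHaar_image_of_lt_det μ A hm
      obtain ⟨δ, hδ, hδpos⟩ := (hev.and self_mem_nhdsWithin).exists
      refine ⟨δ, (ne_of_gt hδpos), fun _ => ⟨m, ?_, hδ⟩⟩
      exact (ne_of_gt (by exact_mod_cast hm0))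
  choose r hr0 hr using key
  obtain ⟨t, A, -, -, ht, happ, hA⟩ :=
    exists_partition_approximatesLinearOn_of_hasFDerivWithinAt f S f' hf r hr0
  have hk : ∀ k, μ (S ∩ t k) = 0 := by
    intro k
    obtain ⟨y, hy, hAy⟩ := hA hne k
    obtain ⟨m, hm0, hm⟩ := hr (A k) (by rw [hAy]; exact hdet y hy)
    have h1 := hm (S ∩ t k) f (happ k)
    have h2 : μ (f '' (S ∩ t k)) = 0 :=
      measure_mono_null (image_mono inter_subset_left) h0
    rw [h2] at h1
    have h3 : (m : ℝ≥0∞) * μ (S ∩ t k) = 0 := le_antisymm h1 bot_le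
    rcases mul_eq_zero.1 h3 with h | h
    · exact absurd (by exact_mod_cast h) hm0
    · exact h
  have : S ⊆ ⋃ k, S ∩ t k := by
    intro x hx
    obtain ⟨k, hk⟩ := mem_iUnion.1 (ht hx)
    exact mem_iUnion.2 ⟨k, hx, hk⟩
  exact measure_mono_null this (measure_iUnion_null hk)

omit [MeasurableSpace E] [BorelSpace E] in
/-- For a linear map `B`, `det (1 + s⁻¹ B) ≠ 0` for almost every `s`. -/
lemma ae_det_ne (B : E →L[ℝ] E) :
    ∀ᵐ s : ℝ, (ContinuousLinearMap.id ℝ E + s⁻¹ • B).det ≠ 0 := by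
  have hfin : Set.Finite {s : ℝ | (ContinuousLinearMap.id ℝ E + s⁻¹ • B).det = 0} := by
    refine ((Module.End.finite_hasEigenvalue (B : E →ₗ[ℝ] E)).image fun x => -x).subset ?_
    intro s hs
    have hs' : (ContinuousLinearMap.id ℝ E + s⁻¹ • B).det = 0 := hs
    have hs0 : s ≠ 0 := by
      rintro rfl
      simp [ContinuousLinearMap.det] at hs'
    refine ⟨-s, ?_, by simp⟩
    show Module.End.HasEigenvalue (B : E →ₗ[ℝ] E) (-s)
    have hker := LinearMap.bot_lt_ker_of_det_eq_zero hs'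
    obtain ⟨v, hv, hv0⟩ := (Submodule.ne_bot_iff _).1 hker.ne'
    have hv1 : v + s⁻¹ • B v = 0 := by
      have := LinearMap.mem_ker.1 hv
      simpa using this
    refine Module.End.hasEigenvalue_of_hasEigenvector (x := v) ⟨?_, hv0⟩
    rw [Module.End.mem_eigenspace_iff]
    show B v = (-s) • v
    have h2 : s • (v + s⁻¹ • B v) = 0 := by rw [hv1, smul_zero]
    rw [smul_add, smul_inv_smul₀ hs0] at h2
    rw [neg_smul]
    exact eq_neg_of_add_eq_zero_right h2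
  exact (hfin.measure_zero volume : volume {s : ℝ | _} = 0) |> fun h => by
    rw [ae_iff]
    simpa using h

/-- A `0`-homogeneous map that is differentiable a.e. satisfies `det (1 + DA) ≠ 0` a.e. -/
lemma ae_det (A : E → E) (hhom : ∀ x : E, ∀ s : ℝ, 0 < s → A (s • x) = A x) :
    ∀ᵐ x ∂μ, (ContinuousLinearMap.id ℝ E + fderiv ℝ A x).det ≠ 0 := by
  have hmeas : MeasurableSet {p : E × ℝ |
      (ContinuousLinearMap.id ℝ E + p.2⁻¹ • fderiv ℝ A p.1).det ≠ 0} := by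
    have : Measurable fun p : E × ℝ =>
        (ContinuousLinearMap.id ℝ E + p.2⁻¹ • fderiv ℝ A p.1).det := by
      apply ContinuousLinearMap.continuous_det.measurable.comp
      apply Measurable.const_add
      exact (measurable_snd.inv).smul ((measurable_fderiv ℝ A).comp measurable_fst)
    exact this (measurableSet_singleton 0).compl
  have h1 : ∀ᵐ x ∂μ, ∀ᵐ s : ℝ, (ContinuousLinearMap.id ℝ E + s⁻¹ • fderiv ℝ A x).det ≠ 0 :=
    Eventually.of_forall fun x => ae_det_ne (fderiv ℝ A x)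
  have h2 := (Measure.ae_ae_comm hmeas).1 h1
  obtain ⟨s, hs, hs1⟩ : ∃ s : ℝ, (∀ᵐ x ∂μ,
      (ContinuousLinearMap.id ℝ E + s⁻¹ • fderiv ℝ A x).det ≠ 0) ∧ 0 < s := by
    have h3 : ∃ᵐ s : ℝ, 0 < s := by
      intro h
      have : volume (Ioi (0 : ℝ)) = 0 := by
        rw [ae_iff] at h
        simpa [Ioi] using h
      simp at this
    obtain ⟨s, h4, h5⟩ := (h3.and_eventually h2).exists
    exact ⟨s, h5, h4⟩
  have hder : ∀ x, fderiv ℝ A (s • x) = s⁻¹ • fderiv ℝ A x := by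
    intro x
    have e : A = fun y => A (s • y) := by
      funext y
      exact (hhom y s hs1).symm
    have : fderiv ℝ A x = s • fderiv ℝ A (s • x) := by
      conv_lhs => rw [e]
      exact fderiv_comp_smul s
    rw [this, inv_smul_smul₀ hs1.ne']
  have h6 : ∀ᵐ x ∂μ, (ContinuousLinearMap.id ℝ E + fderiv ℝ A (s • x)).det ≠ 0 := by
    filter_upwards [hs] with x hx
    rw [hder x]
    exact hx
  rw [ae_iff] at h6 ⊢
  have h7 : {x | ¬ (ContinuousLinearMap.id ℝ E + fderiv ℝ A x).det ≠ 0} =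
      s • {x | ¬ (ContinuousLinearMap.id ℝ E + fderiv ℝ A (s • x)).det ≠ 0} := by
    ext y
    rw [Set.mem_smul_set_iff_inv_smul_mem₀ hs1.ne']
    simp only [mem_ofPred_eq, smul_inv_smul₀ hs1.ne']
  rw [h7, Measure.addHaar_smul, h6, mul_zero]

/-- normalization is Lipschitz away from the origin -/
lemma normalize_sub {x y : E} (hx : x ≠ 0) (hy : y ≠ 0) :
    ‖‖x‖⁻¹ • x - ‖y‖⁻¹ • y‖ ≤ 2 * ‖x‖⁻¹ * ‖x - y‖ := by
  have hx' : 0 < ‖x‖ := norm_pos_iff.2 hx
  have hy' : 0 < ‖y‖ := norm_pos_iff.2 hy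
  have e : ‖x‖⁻¹ • x - ‖y‖⁻¹ • y = ‖x‖⁻¹ • (x - y) + (‖x‖⁻¹ - ‖y‖⁻¹) • y := by
    rw [smul_sub, sub_smul]
    abel
  have h1 : |‖x‖⁻¹ - ‖y‖⁻¹| * ‖y‖ = ‖x‖⁻¹ * |‖y‖ - ‖x‖| := by
    have : ‖x‖⁻¹ - ‖y‖⁻¹ = ‖x‖⁻¹ * (‖y‖ - ‖x‖) * ‖y‖⁻¹ := by
      field_simp
    rw [this, abs_mul, abs_mul, abs_of_pos (inv_pos.2 hx'), abs_of_pos (inv_pos.2 hy')]
    field_simp
  have h2 : |‖y‖ - ‖x‖| ≤ ‖x - y‖ := by
    rw [norm_sub_rev x y]
    exact abs_norm_sub_norm_le y x
  rw [e]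
  calc ‖‖x‖⁻¹ • (x - y) + (‖x‖⁻¹ - ‖y‖⁻¹) • y‖
      ≤ ‖‖x‖⁻¹ • (x - y)‖ + ‖(‖x‖⁻¹ - ‖y‖⁻¹) • y‖ := norm_add_le _ _
    _ = ‖x‖⁻¹ * ‖x - y‖ + ‖x‖⁻¹ * |‖y‖ - ‖x‖| := by
        rw [norm_smul, norm_smul, Real.norm_eq_abs, Real.norm_eq_abs, h1,
          abs_of_pos (inv_pos.2 hx')]
    _ ≤ ‖x‖⁻¹ * ‖x - y‖ + ‖x‖⁻¹ * ‖x - y‖ := by gcongr
    _ = 2 * ‖x‖⁻¹ * ‖x - y‖ := by ring

/-- The `0`-homogeneous extension of a Lipschitz map is differentiable a.e. off the origin. -/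
lemma ae_diff (g : E → E) (C : ℝ≥0) (hg : LipschitzWith C g) :
    ∀ᵐ x ∂μ, x ≠ 0 → DifferentiableAt ℝ (fun x => g (‖x‖⁻¹ • x)) x := by
  have h1 : ∀ k : ℕ, ∀ᵐ x ∂μ, x ∈ {x : E | 1 / ((k : ℝ) + 1) < ‖x‖} →
      DifferentiableWithinAt ℝ (fun x => g (‖x‖⁻¹ • x)) {x : E | 1 / ((k : ℝ) + 1) < ‖x‖} x := by
    intro k
    have hk : (0 : ℝ) < (k : ℝ) + 1 := by positivity
    have hL : LipschitzOnWith (C * (2 * ((k : ℝ≥0) + 1))) (fun x => g (‖x‖⁻¹ • x))
        {x : E | 1 / ((k : ℝ) + 1) < ‖x‖} := by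
      apply LipschitzOnWith.of_dist_le_mul
      intro x hx y hy
      have hx1 : 1 / ((k : ℝ) + 1) < ‖x‖ := hx
      have hy1 : 1 / ((k : ℝ) + 1) < ‖y‖ := hy
      have hk' : 0 < 1 / ((k : ℝ) + 1) := by positivity
      have hx0 : x ≠ 0 := norm_pos_iff.1 (hk'.trans hx1)
      have hy0 : y ≠ 0 := norm_pos_iff.1 (hk'.trans hy1)
      have h2 := normalize_sub hx0 hy0
      have h3 : ‖x‖⁻¹ ≤ (k : ℝ) + 1 := by
        rw [inv_le_comm₀ (hk'.trans hx1) hk]
        rw [one_div] at hx1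
        exact hx1.le
      calc dist (g (‖x‖⁻¹ • x)) (g (‖y‖⁻¹ • y))
          ≤ C * dist (‖x‖⁻¹ • x) (‖y‖⁻¹ • y) := hg.dist_le_mul _ _
        _ = C * ‖‖x‖⁻¹ • x - ‖y‖⁻¹ • y‖ := by rw [dist_eq_norm]
        _ ≤ C * (2 * ‖x‖⁻¹ * ‖x - y‖) := by gcongr
        _ ≤ C * (2 * ((k : ℝ) + 1) * ‖x - y‖) := by gcongr
        _ = _ := by
            rw [dist_eq_norm]
            push_cast
            ring
    exact hL.ae_differentiableWithinAt_of_mem
  filter_upwards [ae_all_iff.2 h1] with x hx hx0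
  obtain ⟨k, hk⟩ := exists_nat_one_div_lt (norm_pos_iff.2 hx0)
  have hopen : IsOpen {x : E | 1 / ((k : ℝ) + 1) < ‖x‖} :=
    isOpen_lt continuous_const continuous_norm
  exact (hx k hk).differentiableAt (hopen.mem_nhds hk)

open Metric in
/-- **Main theorem.** -/
theorem main (K : Set E) (D : Set (sphere (0 : E) 1))
    (hpos : μ (Ioo (0 : ℝ) 1 • (((↑) : sphere (0 : E) 1 → E) '' D)) ≠ 0)
    (a : sphere (0 : E) 1 → E) (L : ℝ≥0) (ha : LipschitzOnWith L a D)
    (hK : ∀ e ∈ D, ∀ t ∈ Ioo (0 : ℝ) 1, a e + t • (e : E) ∈ K) :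
    0 < μ K ∧ dimH K = Module.finrank ℝ E := by
  classical
  have hμK : μ K ≠ 0 := by
    intro hK0
    let f : E → E := fun x => if h : x ∈ sphere (0 : E) 1 then a ⟨x, h⟩ else 0
    have hfe : ∀ e : sphere (0 : E) 1, f e = a e := by
      intro e
      simp only [f, dif_pos e.2]
    have hf : LipschitzOnWith L f ((↑) '' D) := by
      rintro _ ⟨e, he, rfl⟩ _ ⟨e', he', rfl⟩
      rw [hfe, hfe]
      exact ha he he'
    obtain ⟨g, hg, hgf⟩ := hf.extend_finite_dimension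
    let A : E → E := fun x => g (‖x‖⁻¹ • x)
    have hAe : ∀ e ∈ D, ∀ t : ℝ, 0 < t → A (t • (e : E)) = a e := by
      intro e he t ht
      have hn : ‖(e : E)‖ = 1 := by simpa using e.2
      show g (‖t • (e : E)‖⁻¹ • t • (e : E)) = a e
      rw [norm_smul, hn, mul_one, Real.norm_eq_abs, abs_of_pos ht, inv_smul_smul₀ ht.ne',
        ← hgf ⟨e, he, rfl⟩, hfe]
    have hhom : ∀ x : E, ∀ s : ℝ, 0 < s → A (s • x) = A x := by
      intro x s hs
      show g (‖s • x‖⁻¹ • s • x) = g (‖x‖⁻¹ • x)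
      rw [norm_smul, Real.norm_eq_abs, abs_of_pos hs, mul_inv, mul_comm, mul_smul,
        inv_smul_smul₀ hs.ne']
    set S : Set E := {x | x ∈ Ioo (0 : ℝ) 1 • (((↑) : sphere (0 : E) 1 → E) '' D) ∧
      DifferentiableAt ℝ A x ∧ (ContinuousLinearMap.id ℝ E + fderiv ℝ A x).det ≠ 0} with hS
    have himage : (fun x => x + A x) '' S ⊆ K := by
      rintro _ ⟨x, hx, rfl⟩
      obtain ⟨t, ht, y, hy, rfl⟩ := Set.mem_smul.1 hx.1
      obtain ⟨e, he, rfl⟩ := hy
      show t • (e : E) + A (t • (e : E)) ∈ K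
      rw [hAe e he t ht.1, add_comm]
      exact hK e he t ht
    have hS0 : μ S = 0 := by
      refine null_of_image_null μ (fun x => x + A x)
        (fun x => ContinuousLinearMap.id ℝ E + fderiv ℝ A x) S ?_ ?_
        (measure_mono_null himage hK0)
      · intro x hx
        exact ((hasFDerivAt_id x).add hx.2.1.hasFDerivAt).hasFDerivWithinAt
      · intro x hx
        exact hx.2.2
    have hC0 : μ (Ioo (0 : ℝ) 1 • (((↑) : sphere (0 : E) 1 → E) '' D)) = 0 := by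
      rw [← hS0]
      refine le_antisymm ?_ (measure_mono fun x hx => hx.1)
      apply measure_mono_ae
      filter_upwards [ae_diff μ g _ hg, ae_det μ A hhom] with x h1 h2 hx
      refine ⟨hx, h1 ?_, h2⟩
      obtain ⟨t, ht, y, hy, rfl⟩ := Set.mem_smul.1 hx
      obtain ⟨e, he, rfl⟩ := hy
      have hn : ‖(e : E)‖ = 1 := by simpa using e.2
      intro h0
      have : ‖t • (e : E)‖ = t := by
        rw [norm_smul, hn, mul_one, Real.norm_eq_abs, abs_of_pos ht.1]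
      rw [h0, norm_zero] at this
      exact ht.1.ne this
    exact hpos hC0
  refine ⟨pos_iff_ne_zero.2 hμK, le_antisymm ?_ ?_⟩
  · exact (dimH_mono (subset_univ K)).trans (Real.dimH_univ_eq_finrank E).le
  · have h1 : (μH[((Module.finrank ℝ E : ℝ≥0) : ℝ)] : Measure E) K ≠ 0 := by
      intro h0
      apply hμK
      have hac : μ ≪ (μH[(Module.finrank ℝ E : ℝ)] : Measure E) :=
        Measure.absolutelyContinuous_isAddHaarMeasure _ _
      exact hac (by simpa using h0)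
    have := le_dimH_of_hausdorffMeasure_ne_zero h1
    simpa using this

open Metric in
/-- A set of directions with null cone is null for the surface measure. -/
lemma sphere_null (D : Set (sphere (0 : E) 1))
    (h : μ (Ioo (0 : ℝ) 1 • (((↑) : sphere (0 : E) 1 → E) '' D)) = 0) : μ.toSphere D = 0 := by
  have h1 := Measure.toSphere_apply_aux μ D ⟨1, mem_Ioi.2 one_pos⟩
  have hemb : MeasurableEmbedding ((↑) : ({0}ᶜ : Set E) → E) :=
    MeasurableEmbedding.subtype_coe (measurableSet_singleton _).compl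
  have h2 : (μ.toSphere.prod (Measure.volumeIoiPow (Module.finrank ℝ E - 1)))
      (D ×ˢ Iio (⟨1, mem_Ioi.2 one_pos⟩ : Ioi (0 : ℝ))) = 0 := by
    rw [← (Measure.measurePreserving_homeomorphUnitSphereProd μ).map_eq,
      (homeomorphUnitSphereProd E).measurableEmbedding.map_apply, hemb.comap_apply, h1]
    exact h
  rw [Measure.prod_prod] at h2
  rcases mul_eq_zero.1 h2 with h3 | h3
  · exact h3
  · exfalso
    rw [Measure.volumeIoiPow_apply_Iio, ENNReal.ofReal_eq_zero] at h3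
    have : (0 : ℝ) < 1 ^ (Module.finrank ℝ E - 1 + 1) / (((Module.finrank ℝ E - 1 : ℕ) : ℝ) + 1) := by
      positivity
    exact absurd h3 (not_le.2 this)

open Metric in
/-- Pointwise Lipschitz choices. -/
theorem pointwise (K : Set E) (D : Set (sphere (0 : E) 1)) (hpos : μ.toSphere D ≠ 0)
    (a : sphere (0 : E) 1 → E)
    (ha : ∀ e ∈ D, ∃ L r : ℝ, 0 < r ∧ ∀ e' ∈ D, dist e' e < r →
      dist (a e') (a e) ≤ L * dist e' e)
    (hK : ∀ e ∈ D, ∀ t ∈ Ioo (0 : ℝ) 1, a e + t • (e : E) ∈ K) :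
    0 < μ K ∧ dimH K = Module.finrank ℝ E := by
  by_contra hcon
  apply hpos
  obtain ⟨S, hSc, hSd⟩ := TopologicalSpace.exists_countable_dense (sphere (0 : E) 1)
  let P : ℕ → sphere (0 : E) 1 → Set (sphere (0 : E) 1) := fun k c =>
    {e | e ∈ D ∧ dist e c < 1 / (2 * ((k : ℝ) + 1)) ∧ ∀ e' ∈ D, dist e' e < 1 / ((k : ℝ) + 1) →
      dist (a e') (a e) ≤ ((k : ℝ) + 1) * dist e' e}
  have hP : ∀ k c, μ.toSphere (P k c) = 0 := by
    intro k c
    apply sphere_null μ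
    by_contra hne
    refine hcon (main μ K (P k c) hne a ((k : ℝ≥0) + 1) ?_ fun e he => hK e he.1)
    apply LipschitzOnWith.of_dist_le_mul
    intro e' he' e he
    have hd : dist e' e < 1 / ((k : ℝ) + 1) := by
      have h1 := he'.2.1
      have h2 := he.2.1
      have h3 := dist_triangle_right e' e c
      have h4 : 1 / (2 * ((k : ℝ) + 1)) + 1 / (2 * ((k : ℝ) + 1)) = 1 / ((k : ℝ) + 1) := by
        field_simp
        norm_num
      linarith
    have := he.2.2 e' he'.1 hd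
    push_cast
    exact this
  have hcover : D ⊆ ⋃ k : ℕ, ⋃ c ∈ S, P k c := by
    intro e he
    obtain ⟨L, r, hr, hL⟩ := ha e he
    obtain ⟨k, hk⟩ := exists_nat_gt (max L (1 / r))
    have hk0 : (0 : ℝ) < (k : ℝ) + 1 := by positivity
    have hkr : 1 / ((k : ℝ) + 1) < r := by
      rw [div_lt_iff₀ hk0]
      have h1 : 1 / r < k := (le_max_right _ _).trans_lt hk
      rw [div_lt_iff₀ hr] at h1
      nlinarith
    have hkL : L ≤ (k : ℝ) + 1 := by
      have := (le_max_left L (1 / r)).trans_lt hk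
      linarith
    obtain ⟨c, hcS, hc⟩ := hSd.exists_dist_lt e
      (show (0 : ℝ) < 1 / (2 * ((k : ℝ) + 1)) by positivity)
    simp only [mem_iUnion]
    refine ⟨k, c, hcS, he, hc, fun e' he' hd => ?_⟩
    exact (hL e' he' (hd.trans hkr)).trans (by gcongr)
  refine measure_mono_null hcover (measure_iUnion_null fun k => ?_)
  exact (measure_biUnion_null_iff hSc).2 fun c _ => hP k c

end

end Vale.P127
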