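import Mathlib

/-! P127: definitions for the hand-in. -/

namespace Vale.P127

open MeasureTheory Metric Set

/-- `ℝ^n` with the Euclidean norm -/
abbrev V (n : ℕ) : Type := EuclideanSpace ℝ (Fin n)

/-- the directions: the unit sphere of `ℝ^n` -/
abbrev Dir (n : ℕ) : Type := sphere (0 : V n) 1

/-- surface measure on the unit sphere -/
noncomputable def surf (n : ℕ) : Measure (Dir n) := (volume : Measure (V n)).toSphere

/-- `K` contains the unit segment `a e + [0,1] e` for every direction `e ∈ D` -/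
def Segs {n : ℕ} (K : Set (V n)) (D : Set (Dir n)) (a : Dir n → V n) : Prop :=
  ∀ e ∈ D, ∀ t ∈ Icc (0 : ℝ) 1, a e + t • (e : V n) ∈ K

/-- `a` is pointwise Lipschitz at `e` relative to `D`:
`limsup |a e' - a e| / |e' - e| < ∞` as `e' → e` in `D` -/
def PtLip {n : ℕ} (D : Set (Dir n)) (a : Dir n → V n) (e : Dir n) : Prop :=
  ∃ L r : ℝ, 0 < r ∧ ∀ e' ∈ D, dist e' e < r → dist (a e') (a e) ≤ L * dist e' e

end Vale.P127
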